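import Mathlib

namespace Vale.Agent.H8

/-- The number of integers strictly between two reals `a ≤ b` is at most `b - a + 1`. -/
theorem card_int_Ioo_le (s : Finset ℤ) (a b : ℝ) (hab : a ≤ b)
    (hs : ∀ k ∈ s, a < (k : ℝ) ∧ (k : ℝ) < b) : (s.card : ℝ) ≤ b - a + 1 := by
  have hsub : s ⊆ Finset.Ioo ⌊a⌋ ⌈b⌉ := by
    intro k hk
    obtain ⟨h1, h2⟩ := hs k hk
    rw [Finset.mem_Ioo]
    exact ⟨Int.floor_lt.mpr h1, Int.lt_ceil.mpr h2⟩
  have hcard := Finset.card_le_card hsub
  rw [Int.card_Ioo] at hcard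
  have h1 : ((⌈b⌉ - ⌊a⌋ - 1).toNat : ℤ) = max (⌈b⌉ - ⌊a⌋ - 1) 0 := Int.toNat_eq_max _
  have h2 : ((s.card : ℤ) : ℝ) ≤ (((⌈b⌉ - ⌊a⌋ - 1).toNat : ℤ) : ℝ) := by
    exact_mod_cast hcard
  rw [h1] at h2
  have h3 : ((max (⌈b⌉ - ⌊a⌋ - 1) 0 : ℤ) : ℝ) ≤ b - a + 1 := by
    rw [Int.cast_max]
    apply max_le
    · push_cast
      have := Int.ceil_lt_add_one b
      have := Int.sub_one_lt_floor a
      linarith
    · push_cast; linarith
  have h4 : ((s.card : ℤ) : ℝ) = (s.card : ℝ) := by norm_cast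
  linarith

/-- Counting lemma: for coprime `n, m`, among the `n` points `y + m j / n` (`j < n`) at most
`2 ρ n + 1` lie within distance `< ρ` of an integer. -/
theorem card_filter_round_lt (n m : ℕ) (hn : 0 < n) (hnm : Nat.Coprime n m) (y ρ : ℝ)
    (hρ : 0 ≤ ρ) :
    (((Finset.range n).filter (fun j : ℕ =>
      |y + (m : ℝ) * j / n - round (y + (m : ℝ) * j / n)| < ρ)).card : ℝ) ≤ 2 * ρ * n + 1 := by
  set s := (Finset.range n).filter (fun j : ℕ =>
      |y + (m : ℝ) * j / n - round (y + (m : ℝ) * j / n)| < ρ) with hs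
  set f : ℕ → ℤ := fun j => n * round (y + (m : ℝ) * j / n) - m * j with hf
  have hn' : (0 : ℝ) < n := by exact_mod_cast hn
  have hinj : Set.InjOn f (s : Set ℕ) := by
    intro j hj j' hj' hjj'
    rw [Finset.mem_coe, hs, Finset.mem_filter, Finset.mem_range] at hj hj'
    simp only [hf] at hjj'
    have hdvd : (n : ℤ) ∣ (m : ℤ) * ((j : ℤ) - j') := by
      refine ⟨round (y + (m : ℝ) * j / n) - round (y + (m : ℝ) * j' / n), ?_⟩
      linarith
    have hcop : IsCoprime (n : ℤ) (m : ℤ) := by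
      rw [Int.isCoprime_iff_gcd_eq_one]
      simpa [Int.gcd_natCast_natCast] using hnm
    have hdvd' : (n : ℤ) ∣ ((j : ℤ) - j') := hcop.dvd_of_dvd_mul_left hdvd
    have habs : |(j : ℤ) - j'| < n := by
      rw [abs_lt]
      constructor <;> omega
    have := Int.eq_zero_of_abs_lt_dvd hdvd' habs
    omega
  have hcard : (s.image f).card = s.card := Finset.card_image_of_injOn hinj
  rw [← hcard]
  have := card_int_Ioo_le (s.image f) (n * y - ρ * n) (n * y + ρ * n) (by nlinarith) ?_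
  · linarith
  · intro k hk
    rw [Finset.mem_image] at hk
    obtain ⟨j, hj, rfl⟩ := hk
    simp only [hs, Finset.mem_filter, Finset.mem_range] at hj
    obtain ⟨_, hj⟩ := hj
    rw [abs_lt] at hj
    simp only [hf]
    push_cast
    have e : y + (m : ℝ) * j / n - round (y + (m : ℝ) * j / n)
        = (n * y - (n * round (y + (m : ℝ) * j / n) - m * j)) / n := by
      field_simp
      ring
    rw [e] at hj
    obtain ⟨h1, h2⟩ := hj
    rw [lt_div_iff₀ hn'] at h1
    rw [div_lt_iff₀ hn'] at h2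
    constructor <;> linarith

end Vale.Agent.H8
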