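import Mathlib

namespace Vale.Agent.H8

open MeasureTheory Set

/-- The Chung–Erdős inequality: `(∑ μ(A i))² ≤ μ(⋃ A i) * ∑ ∑ μ(A i ∩ A j)`. -/
theorem chung_erdos {Ω : Type*} [MeasurableSpace Ω] (μ : Measure Ω) [IsFiniteMeasure μ]
    {ι : Type*} (s : Finset ι) (A : ι → Set Ω) (hA : ∀ i ∈ s, MeasurableSet (A i)) :
    (∑ i ∈ s, μ.real (A i)) ^ 2
      ≤ μ.real (⋃ i ∈ s, A i) * ∑ i ∈ s, ∑ j ∈ s, μ.real (A i ∩ A j) := by
  classical
  set U : Set Ω := ⋃ i ∈ s, A i with hU
  have hUm : MeasurableSet U := Finset.measurableSet_biUnion s hA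
  set f : Ω → ℝ := fun ω => ∑ i ∈ s, (A i).indicator (1 : Ω → ℝ) ω with hf
  set S := ∑ i ∈ s, μ.real (A i) with hS
  set T := ∑ i ∈ s, ∑ j ∈ s, μ.real (A i ∩ A j) with hT
  have hind : ∀ i ∈ s, Integrable ((A i).indicator (1 : Ω → ℝ)) μ := fun i hi =>
    (integrable_const (1 : ℝ)).indicator (hA i hi)
  have hfint : Integrable f μ := integrable_finsetSum s hind
  have hfS : ∫ ω, f ω ∂μ = S := by
    simp only [hf]
    rw [integral_finsetSum s hind]
    refine Finset.sum_congr rfl (fun i hi => ?_)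
    exact integral_indicator_one (hA i hi)
  have hsq : ∀ ω, f ω ^ 2 = ∑ i ∈ s, ∑ j ∈ s, (A i ∩ A j).indicator (1 : Ω → ℝ) ω := by
    intro ω
    simp only [hf]
    rw [sq, Finset.sum_mul_sum]
    refine Finset.sum_congr rfl (fun i _ => Finset.sum_congr rfl (fun j _ => ?_))
    rw [Set.inter_indicator_one]
    rfl
  have hind2 : ∀ i ∈ s, ∀ j ∈ s, Integrable ((A i ∩ A j).indicator (1 : Ω → ℝ)) μ :=
    fun i hi j hj => (integrable_const (1 : ℝ)).indicator ((hA i hi).inter (hA j hj))
  have hf2int : Integrable (fun ω => f ω ^ 2) μ := by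
    simp_rw [hsq]
    exact integrable_finsetSum s (fun i hi => integrable_finsetSum s (fun j hj => hind2 i hi j hj))
  have hfT : ∫ ω, f ω ^ 2 ∂μ = T := by
    simp_rw [hsq]
    rw [integral_finsetSum s (fun i hi => integrable_finsetSum s (fun j hj => hind2 i hi j hj))]
    refine Finset.sum_congr rfl (fun i hi => ?_)
    rw [integral_finsetSum s (fun j hj => hind2 i hi j hj)]
    refine Finset.sum_congr rfl (fun j hj => ?_)
    exact integral_indicator_one ((hA i hi).inter (hA j hj))
  have hUint : Integrable (U.indicator (1 : Ω → ℝ)) μ := (integrable_const (1 : ℝ)).indicator hUm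
  have hUu : ∫ ω, U.indicator (1 : Ω → ℝ) ω ∂μ = μ.real U := integral_indicator_one hUm
  have hf0 : ∀ ω, ω ∉ U → f ω = 0 := by
    intro ω hω
    simp only [hf]
    apply Finset.sum_eq_zero
    intro i hi
    apply indicator_of_notMem
    intro h
    exact hω (mem_biUnion hi h)
  have hS0 : 0 ≤ S := Finset.sum_nonneg (fun i _ => measureReal_nonneg)
  have hT0 : 0 ≤ T := Finset.sum_nonneg (fun i _ => Finset.sum_nonneg (fun j _ => measureReal_nonneg))
  have hu0 : 0 ≤ μ.real U := measureReal_nonneg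
  have key : ∀ t : ℝ, 2 * t * S ≤ T + t ^ 2 * μ.real U := by
    intro t
    have hpt : ∀ ω, 2 * t * f ω ≤ f ω ^ 2 + t ^ 2 * U.indicator (1 : Ω → ℝ) ω := by
      intro ω
      by_cases hω : ω ∈ U
      · rw [indicator_of_mem hω]
        simp only [Pi.one_apply, mul_one]
        nlinarith [sq_nonneg (f ω - t)]
      · rw [indicator_of_notMem hω, hf0 ω hω]
        simp
    have h1 := integral_mono (hfint.const_mul (2 * t)) (hf2int.add (hUint.const_mul (t ^ 2))) hpt
    rw [integral_const_mul, integral_add' hf2int (hUint.const_mul (t ^ 2)), integral_const_mul,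
      hfS, hfT, hUu] at h1
    exact h1
  rcases hu0.eq_or_lt with hu | hu
  · rw [← hu, zero_mul]
    have hS' : S = 0 := by
      by_contra hne
      have hSpos : 0 < S := lt_of_le_of_ne hS0 (Ne.symm hne)
      have := key ((T + 1) / (2 * S))
      rw [← hu, mul_zero, add_zero] at this
      have e : 2 * ((T + 1) / (2 * S)) * S = T + 1 := by
        field_simp
      rw [e] at this
      linarith
    rw [hS']
    simp
  · have := key (S / μ.real U)
    have e1 : 2 * (S / μ.real U) * S = 2 * S ^ 2 / μ.real U := by ring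
    have e2 : (S / μ.real U) ^ 2 * μ.real U = S ^ 2 / μ.real U := by
      field_simp
    rw [e1, e2] at this
    have h3 : S ^ 2 / μ.real U ≤ T := by
      have : 2 * S ^ 2 / μ.real U = S ^ 2 / μ.real U + S ^ 2 / μ.real U := by ring
      linarith
    rw [div_le_iff₀ hu] at h3
    linarith

end Vale.Agent.H8
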