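import Mathlib
import Vale.Agent.H8.Count

namespace Vale.Agent.H8

open MeasureTheory Set
open scoped ENNReal

/-- The set of points `x` of the circle with `‖n x - c‖ < ρ`. -/
def arcSet (n : ℕ) (c : UnitAddCircle) (ρ : ℝ) : Set UnitAddCircle :=
  {x | ‖n • x - c‖ < ρ}

theorem arcSet_eq_preimage (n : ℕ) (c : UnitAddCircle) (ρ : ℝ) :
    arcSet n c ρ = (fun x : UnitAddCircle => n • x) ⁻¹' Metric.ball c ρ := by
  ext x
  simp [arcSet, Metric.mem_ball, dist_eq_norm]

theorem measurableSet_arcSet (n : ℕ) (c : UnitAddCircle) (ρ : ℝ) :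
    MeasurableSet (arcSet n c ρ) := by
  rw [arcSet_eq_preimage]
  exact (continuous_nsmul n).measurable measurableSet_ball

theorem measurePreserving_nsmul' (n : ℕ) (hn : 0 < n) :
    MeasurePreserving (fun x : UnitAddCircle => n • x) volume volume := by
  have h := MeasureTheory.Measure.measurePreserving_zsmul
    (volume : Measure UnitAddCircle) (n := (n : ℤ)) (by exact_mod_cast hn.ne')
  simpa using h

theorem volume_ball' (c : UnitAddCircle) (ρ : ℝ) :
    volume (Metric.ball c ρ) = ENNReal.ofReal (min 1 (2 * ρ)) := by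
  rw [← measure_congr (AddCircle.closedBall_ae_eq_ball (x := c) (ε := ρ)),
    AddCircle.volume_closedBall]

theorem volume_arcSet (n : ℕ) (hn : 0 < n) (c : UnitAddCircle) (ρ : ℝ) :
    volume (arcSet n c ρ) = ENNReal.ofReal (min 1 (2 * ρ)) := by
  rw [arcSet_eq_preimage, (measurePreserving_nsmul' n hn).measure_preimage
    measurableSet_ball.nullMeasurableSet, volume_ball']

/-- Overlap estimate, coprime case. -/
theorem overlap_coprime (n m : ℕ) (hn : 0 < n) (hnm : Nat.Coprime n m) (c c' : UnitAddCircle)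
    (ρ ρ' : ℝ) (hρ' : 0 ≤ ρ') :
    (n : ℝ≥0∞) * volume (arcSet n c ρ ∩ arcSet m c' ρ')
      ≤ ENNReal.ofReal (2 * ρ' * n + 1) * volume (arcSet n c ρ) := by
  classical
  set A := arcSet n c ρ with hA
  set B := arcSet m c' ρ' with hB
  have hAm : MeasurableSet A := measurableSet_arcSet n c ρ
  have hBm : MeasurableSet B := measurableSet_arcSet m c' ρ'
  have hn' : (n : ℝ) ≠ 0 := by exact_mod_cast hn.ne'
  let t : ℕ → UnitAddCircle := fun j => (((j : ℝ) / n : ℝ) : UnitAddCircle)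
  have ht : ∀ j, n • t j = 0 := by
    intro j
    simp only [t]
    rw [← AddCircle.coe_nsmul, AddCircle.coe_eq_zero_iff]
    refine ⟨(j : ℤ), ?_⟩
    simp only [nsmul_eq_mul, zsmul_eq_mul, mul_one]
    field_simp
    norm_cast
  have key : ∀ j, volume (A ∩ B) = volume (A ∩ (fun x => x + t j) ⁻¹' B) := by
    intro j
    rw [← measure_preimage_add_right volume (t j) (A ∩ B)]
    congr 1
    ext x
    simp only [mem_preimage, mem_inter_iff, hA, arcSet, mem_ofPred_eq, nsmul_add, ht, add_zero]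
  have hsum : (n : ℝ≥0∞) * volume (A ∩ B)
      = ∑ j ∈ Finset.range n, volume (A ∩ (fun x => x + t j) ⁻¹' B) := by
    rw [Finset.sum_congr rfl (fun j _ => (key j).symm)]
    simp
  rw [hsum]
  have hmeas : ∀ j, MeasurableSet (A ∩ (fun x => x + t j) ⁻¹' B) := by
    intro j
    exact hAm.inter ((measurable_add_const (t j)) hBm)
  have h1 : ∑ j ∈ Finset.range n, volume (A ∩ (fun x => x + t j) ⁻¹' B)
      = ∫⁻ x, ∑ j ∈ Finset.range n, (A ∩ (fun x => x + t j) ⁻¹' B).indicator 1 x := by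
    rw [lintegral_finsetSum]
    · refine Finset.sum_congr rfl (fun j _ => ?_)
      rw [lintegral_indicator_one (hmeas j)]
    · intro j _
      exact measurable_one.indicator (hmeas j)
  rw [h1, ← lintegral_indicator_const hAm]
  apply lintegral_mono
  intro x
  beta_reduce
  by_cases hx : x ∈ A
  · rw [indicator_of_mem hx]
    -- count the j with x + t j ∈ B
    have h2 : ∑ j ∈ Finset.range n, (A ∩ (fun x => x + t j) ⁻¹' B).indicator (1 : UnitAddCircle → ℝ≥0∞) x
        = (((Finset.range n).filter (fun j => x + t j ∈ B)).card : ℝ≥0∞) := by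
      rw [← Finset.sum_boole]
      refine Finset.sum_congr rfl (fun j _ => ?_)
      by_cases hj : x + t j ∈ B
      · rw [indicator_of_mem (show x ∈ A ∩ (fun x => x + t j) ⁻¹' B from ⟨hx, hj⟩), if_pos hj]
        rfl
      · rw [indicator_of_notMem (show x ∉ A ∩ (fun x => x + t j) ⁻¹' B from fun h => hj h.2),
          if_neg hj]
    rw [h2]
    obtain ⟨y, hy⟩ := QuotientAddGroup.mk_surjective (m • x - c')
    have h3 : (Finset.range n).filter (fun j => x + t j ∈ B)
        = (Finset.range n).filter (fun j : ℕ =>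
          |y + (m : ℝ) * j / n - round (y + (m : ℝ) * j / n)| < ρ') := by
      refine Finset.filter_congr (fun j _ => ?_)
      simp only [hB, arcSet, mem_ofPred_eq]
      have e : m • (x + t j) - c' = ((y + (m : ℝ) * j / n : ℝ) : UnitAddCircle) := by
        rw [nsmul_add, add_sub_right_comm, ← hy]
        simp only [t]
        rw [← AddCircle.coe_nsmul, ← AddCircle.coe_add]
        congr 1
        simp only [nsmul_eq_mul]
        ring
      rw [e, UnitAddCircle.norm_eq]
    rw [h3]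
    have h4 := card_filter_round_lt n m hn hnm y ρ' hρ'
    rw [← ENNReal.ofReal_natCast]
    exact ENNReal.ofReal_le_ofReal h4
  · rw [indicator_of_notMem hx]
    simp only [nonpos_iff_eq_zero]
    apply Finset.sum_eq_zero
    intro j _
    exact indicator_of_notMem (fun h => hx h.1) _



theorem arcSet_mul (g n : ℕ) (c : UnitAddCircle) (ρ : ℝ) :
    arcSet (n * g) c ρ = (fun x : UnitAddCircle => g • x) ⁻¹' arcSet n c ρ := by
  ext x
  simp only [arcSet, mem_ofPred_eq, mem_preimage]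
  rw [mul_nsmul']

/-- Overlap estimate, general case. -/
theorem overlap (n m : ℕ) (hn : 0 < n) (c c' : UnitAddCircle)
    (ρ ρ' : ℝ) (hρ' : 0 ≤ ρ') :
    (n : ℝ≥0∞) * volume (arcSet n c ρ ∩ arcSet m c' ρ')
      ≤ ENNReal.ofReal (2 * ρ' * n + Nat.gcd n m) * volume (arcSet n c ρ) := by
  obtain ⟨n', m', hcop, hn_eq, hm_eq⟩ := Nat.exists_coprime n m
  set g := Nat.gcd n m with hg
  have hg0 : 0 < g := Nat.gcd_pos_of_pos_left m hn
  have hn'0 : 0 < n' := by
    rcases Nat.eq_zero_or_pos n' with h | h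
    · rw [h, zero_mul] at hn_eq; omega
    · exact h
  have hpres := measurePreserving_nsmul' g hg0
  have e1 : arcSet n c ρ ∩ arcSet m c' ρ'
      = (fun x : UnitAddCircle => g • x) ⁻¹' (arcSet n' c ρ ∩ arcSet m' c' ρ') := by
    rw [preimage_inter, ← arcSet_mul, ← arcSet_mul, ← hn_eq, ← hm_eq]
  have e2 : volume (arcSet n c ρ ∩ arcSet m c' ρ')
      = volume (arcSet n' c ρ ∩ arcSet m' c' ρ') := by
    rw [e1, hpres.measure_preimage
      ((measurableSet_arcSet n' c ρ).inter (measurableSet_arcSet m' c' ρ')).nullMeasurableSet]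
  have e3 : volume (arcSet n c ρ) = volume (arcSet n' c ρ) := by
    rw [volume_arcSet n hn, volume_arcSet n' hn'0]
  have h := overlap_coprime n' m' hn'0 hcop c c' ρ ρ' hρ'
  rw [e2, e3]
  have e4 : (n : ℝ≥0∞) = (g : ℝ≥0∞) * (n' : ℝ≥0∞) := by
    rw [hn_eq]; push_cast; ring
  have e5 : ENNReal.ofReal (2 * ρ' * n + g)
      = (g : ℝ≥0∞) * ENNReal.ofReal (2 * ρ' * n' + 1) := by
    rw [← ENNReal.ofReal_natCast g, ← ENNReal.ofReal_mul (by positivity)]
    congr 1
    rw [hn_eq]; push_cast; ring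
  rw [e4, e5, mul_assoc, mul_assoc]
  exact mul_le_mul_right h _

/-- Real-valued overlap estimate. -/
theorem overlap_real (n m : ℕ) (hn : 0 < n) (c c' : UnitAddCircle)
    (ρ ρ' : ℝ) (hρ : 0 ≤ ρ) (hρ2 : ρ ≤ 1 / 2) (hρ' : 0 ≤ ρ') :
    (volume (arcSet n c ρ ∩ arcSet m c' ρ')).toReal
      ≤ 4 * ρ * ρ' + 2 * (Nat.gcd n m : ℝ) * (ρ / n) := by
  have h := overlap n m hn c c' ρ ρ' hρ'
  rw [volume_arcSet n hn, min_eq_right (by linarith : 2 * ρ ≤ 1)] at h
  have hn' : (0 : ℝ) < n := by exact_mod_cast hn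
  have h' := ENNReal.toReal_mono (by
    exact ENNReal.mul_ne_top ENNReal.ofReal_ne_top ENNReal.ofReal_ne_top) h
  rw [ENNReal.toReal_mul, ENNReal.toReal_mul, ENNReal.toReal_natCast,
    ENNReal.toReal_ofReal (by positivity), ENNReal.toReal_ofReal (by positivity)] at h'
  have : (volume (arcSet n c ρ ∩ arcSet m c' ρ')).toReal
      ≤ (2 * ρ' * n + (Nat.gcd n m : ℝ)) * (2 * ρ) / n := by
    rw [le_div_iff₀ hn']
    linarith
  calc (volume (arcSet n c ρ ∩ arcSet m c' ρ')).toReal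
      ≤ (2 * ρ' * n + (Nat.gcd n m : ℝ)) * (2 * ρ) / n := this
    _ = 4 * ρ * ρ' + 2 * (Nat.gcd n m : ℝ) * (ρ / n) := by
      field_simp
      ring

/-- Symmetric real-valued overlap estimate with the minimum. -/
theorem overlap_real_min (n m : ℕ) (hn : 0 < n) (hm : 0 < m) (c c' : UnitAddCircle)
    (ρ ρ' : ℝ) (hρ : 0 ≤ ρ) (hρ2 : ρ ≤ 1 / 2) (hρ' : 0 ≤ ρ') (hρ'2 : ρ' ≤ 1 / 2) :
    (volume (arcSet n c ρ ∩ arcSet m c' ρ')).toReal
      ≤ 4 * ρ * ρ' + 2 * (Nat.gcd n m : ℝ) * min (ρ / n) (ρ' / m) := by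
  have h1 := overlap_real n m hn c c' ρ ρ' hρ hρ2 hρ'
  have h2 := overlap_real m n hm c' c ρ' ρ hρ' hρ'2 hρ
  rw [inter_comm, Nat.gcd_comm] at h2
  rcases le_total (ρ / n) (ρ' / m) with h | h
  · rw [min_eq_left h]; exact h1
  · rw [min_eq_right h]; linarith

theorem volume_arcSet_toReal (n : ℕ) (hn : 0 < n) (c : UnitAddCircle) (ρ : ℝ)
    (hρ : 0 ≤ ρ) (hρ2 : ρ ≤ 1 / 2) :
    (volume (arcSet n c ρ)).toReal = 2 * ρ := by
  rw [volume_arcSet n hn, min_eq_right (by linarith : 2 * ρ ≤ 1),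
    ENNReal.toReal_ofReal (by linarith)]

end Vale.Agent.H8
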