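import Mathlib
import Vale.Agent.H8.Overlap
import Vale.Agent.H8.ChungErdos

namespace Vale.Agent.H8

open MeasureTheory Set Filter
open scoped ENNReal

/-- The gcd weight of a pair `(q, r)`. -/
noncomputable def gcdWeight (ψ : ℕ → ℝ) (q r : ℕ) : ℝ :=
  (Nat.gcd q r : ℝ) * min (ψ q / q) (ψ r / r)

theorem gcdWeight_nonneg (ψ : ℕ → ℝ) (h0 : ∀ q, 0 ≤ ψ q) (q r : ℕ) : 0 ≤ gcdWeight ψ q r := by
  unfold gcdWeight
  have h1 : 0 ≤ ψ q / q := div_nonneg (h0 q) (Nat.cast_nonneg q)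
  have h2 : 0 ≤ ψ r / r := div_nonneg (h0 r) (Nat.cast_nonneg r)
  have h3 : 0 ≤ min (ψ q / q) (ψ r / r) := le_min h1 h2
  positivity

theorem gcdWeight_comm (ψ : ℕ → ℝ) (q r : ℕ) : gcdWeight ψ q r = gcdWeight ψ r q := by
  unfold gcdWeight
  rw [Nat.gcd_comm, min_comm]

/-- Second moment bound on a block `Ico M N`. -/
theorem second_moment_bound (c : ℕ → UnitAddCircle) (ψ : ℕ → ℝ) (h0 : ∀ q, 0 ≤ ψ q)
    (h2 : ∀ q, ψ q ≤ 1 / 2) (M N : ℕ) (hM : 1 ≤ M) :
    ∑ q ∈ Finset.Ico M N, ∑ r ∈ Finset.Ico M N,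
        (volume : Measure UnitAddCircle).real (arcSet q (c q) (ψ q) ∩ arcSet r (c r) (ψ r))
      ≤ (∑ q ∈ Finset.Ico M N, 2 * ψ q) + (∑ q ∈ Finset.Ico M N, 2 * ψ q) ^ 2
        + 4 * ∑ r ∈ Finset.range N, ∑ q ∈ Finset.range r, gcdWeight ψ q r := by
  classical
  set s := Finset.Ico M N with hs
  set B := ∑ r ∈ Finset.range N, ∑ q ∈ Finset.range r, gcdWeight ψ q r with hB
  have hG0 := gcdWeight_nonneg ψ h0
  have hpos : ∀ q ∈ s, 0 < q := by
    intro q hq
    rw [hs, Finset.mem_Ico] at hq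
    omega
  have hltN : ∀ q ∈ s, q < N := by
    intro q hq
    rw [hs, Finset.mem_Ico] at hq
    omega
  -- pointwise bound
  have hpt : ∀ q ∈ s, ∀ r ∈ s,
      (volume : Measure UnitAddCircle).real (arcSet q (c q) (ψ q) ∩ arcSet r (c r) (ψ r))
        ≤ (if q = r then 2 * ψ q else 0) + (2 * ψ q) * (2 * ψ r)
          + 2 * ((if q < r then gcdWeight ψ q r else 0) + (if r < q then gcdWeight ψ r q else 0)) := by
    intro q hq r hr
    rw [measureReal_def]
    by_cases hqr : q = r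
    · subst hqr
      rw [inter_self, volume_arcSet_toReal q (hpos q hq) (c q) (ψ q) (h0 q) (h2 q)]
      simp only [if_true, lt_irrefl, if_false, add_zero, mul_zero]
      nlinarith [h0 q]
    · have h := overlap_real_min q r (hpos q hq) (hpos r hr) (c q) (c r) (ψ q) (ψ r)
        (h0 q) (h2 q) (h0 r) (h2 r)
      rw [if_neg hqr]
      rcases lt_or_gt_of_ne hqr with hlt | hgt
      · rw [if_pos hlt, if_neg (by omega)]
        unfold gcdWeight
        linarith
      · rw [if_neg (by omega), if_pos hgt]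
        have := gcdWeight_comm ψ q r
        unfold gcdWeight at this ⊢
        linarith
  have h1 : ∑ q ∈ s, ∑ r ∈ s,
      (volume : Measure UnitAddCircle).real (arcSet q (c q) (ψ q) ∩ arcSet r (c r) (ψ r))
      ≤ ∑ q ∈ s, ∑ r ∈ s, ((if q = r then 2 * ψ q else 0) + (2 * ψ q) * (2 * ψ r)
          + 2 * ((if q < r then gcdWeight ψ q r else 0) + (if r < q then gcdWeight ψ r q else 0))) :=
    Finset.sum_le_sum (fun q hq => Finset.sum_le_sum (fun r hr => hpt q hq r hr))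
  refine h1.trans ?_
  have e0 : ∑ q ∈ s, ∑ r ∈ s, ((if q = r then 2 * ψ q else 0) + (2 * ψ q) * (2 * ψ r)
          + 2 * ((if q < r then gcdWeight ψ q r else 0) + (if r < q then gcdWeight ψ r q else 0)))
      = (∑ q ∈ s, ∑ r ∈ s, (if q = r then 2 * ψ q else 0))
        + (∑ q ∈ s, ∑ r ∈ s, (2 * ψ q) * (2 * ψ r))
        + 2 * ((∑ q ∈ s, ∑ r ∈ s, (if q < r then gcdWeight ψ q r else 0))
          + (∑ q ∈ s, ∑ r ∈ s, (if r < q then gcdWeight ψ r q else 0))) := by
    simp only [Finset.sum_add_distrib, ← Finset.mul_sum]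
  rw [e0]
  have e1 : ∑ q ∈ s, ∑ r ∈ s, (if q = r then 2 * ψ q else 0) = ∑ q ∈ s, 2 * ψ q := by
    refine Finset.sum_congr rfl (fun q hq => ?_)
    rw [Finset.sum_ite_eq s q (fun _ => 2 * ψ q), if_pos hq]
  have e2 : ∑ q ∈ s, ∑ r ∈ s, (2 * ψ q) * (2 * ψ r) = (∑ q ∈ s, 2 * ψ q) ^ 2 := by
    rw [sq, Finset.sum_mul_sum]
  have e3 : ∑ q ∈ s, ∑ r ∈ s, (if q < r then gcdWeight ψ q r else 0) ≤ B := by
    rw [Finset.sum_comm]
    calc ∑ r ∈ s, ∑ q ∈ s, (if q < r then gcdWeight ψ q r else 0)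
        ≤ ∑ r ∈ s, ∑ q ∈ Finset.range r, gcdWeight ψ q r := by
          refine Finset.sum_le_sum (fun r hr => ?_)
          rw [← Finset.sum_filter]
          refine Finset.sum_le_sum_of_subset_of_nonneg ?_ (fun i _ _ => hG0 i r)
          intro q hq
          rw [Finset.mem_filter] at hq
          exact Finset.mem_range.mpr hq.2
      _ ≤ B := by
          rw [hB]
          refine Finset.sum_le_sum_of_subset_of_nonneg ?_
            (fun r _ _ => Finset.sum_nonneg (fun q _ => hG0 q r))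
          intro r hr
          exact Finset.mem_range.mpr (hltN r hr)
  have e4 : ∑ q ∈ s, ∑ r ∈ s, (if r < q then gcdWeight ψ r q else 0) ≤ B := by
    calc ∑ q ∈ s, ∑ r ∈ s, (if r < q then gcdWeight ψ r q else 0)
        ≤ ∑ q ∈ s, ∑ r ∈ Finset.range q, gcdWeight ψ r q := by
          refine Finset.sum_le_sum (fun q hq => ?_)
          rw [← Finset.sum_filter]
          refine Finset.sum_le_sum_of_subset_of_nonneg ?_ (fun i _ _ => hG0 i q)
          intro r hr
          rw [Finset.mem_filter] at hr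
          exact Finset.mem_range.mpr hr.2
      _ ≤ B := by
          rw [hB]
          refine Finset.sum_le_sum_of_subset_of_nonneg ?_
            (fun r _ _ => Finset.sum_nonneg (fun q _ => hG0 q r))
          intro r hr
          exact Finset.mem_range.mpr (hltN r hr)
  rw [e1, e2]
  linarith



/-- For each `M ≥ 1` the union of the sets `arcSet q` over `q ≥ M` has full measure. -/
theorem union_full (c : ℕ → UnitAddCircle) (ψ : ℕ → ℝ) (h0 : ∀ q, 0 ≤ ψ q)
    (h2 : ∀ q, ψ q ≤ 1 / 2)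
    (hdiv : Tendsto (fun N => ∑ q ∈ Finset.range N, ψ q) atTop atTop)
    (hB : ∀ ε : ℝ, 0 < ε → ∃ᶠ N in atTop,
      ∑ r ∈ Finset.range N, ∑ q ∈ Finset.range r, gcdWeight ψ q r
        ≤ ε * (∑ q ∈ Finset.range N, ψ q) ^ 2)
    (M : ℕ) (hM : 1 ≤ M) :
    (volume : Measure UnitAddCircle) (⋃ q ∈ {q : ℕ | M ≤ q}, arcSet q (c q) (ψ q))ᶜ = 0 := by
  classical
  have : IsProbabilityMeasure (volume : Measure UnitAddCircle) := ⟨UnitAddCircle.measure_univ⟩
  set U : Set UnitAddCircle := ⋃ q ∈ {q : ℕ | M ≤ q}, arcSet q (c q) (ψ q) with hU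
  have hUm : MeasurableSet U :=
    MeasurableSet.biUnion (Set.to_countable _) (fun q _ => measurableSet_arcSet q (c q) (ψ q))
  set P : ℕ → ℝ := fun N => ∑ q ∈ Finset.range N, ψ q with hP
  have key : ∀ ε : ℝ, 0 < ε → 1 ≤ (volume : Measure UnitAddCircle).real U * (1 + 5 * ε) := by
    intro ε hε
    have hev : ∀ᶠ N in atTop, M ≤ N ∧ 2 * P M + 1 ≤ P N ∧ 1 / ε ≤ P N :=
      (eventually_ge_atTop M).and
        ((hdiv.eventually_ge_atTop (2 * P M + 1)).and (hdiv.eventually_ge_atTop (1 / ε)))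
    obtain ⟨N, hBN, hMN, hPN1, hPN2⟩ := ((hB ε hε).and_eventually hev).exists
    set s := Finset.Ico M N with hs
    set S := ∑ q ∈ s, 2 * ψ q with hS
    have hSeq : S = 2 * (P N - P M) := by
      rw [hS, ← Finset.mul_sum, hs, Finset.sum_Ico_eq_sub _ hMN]
    have hPM0 : 0 ≤ P M := Finset.sum_nonneg (fun q _ => h0 q)
    have hSP : P N ≤ S := by rw [hSeq]; linarith
    have hεinv : 0 < 1 / ε := by positivity
    have hSpos : 0 < S := by linarith
    have hsm := second_moment_bound c ψ h0 h2 M N hM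
    have hce := chung_erdos (volume : Measure UnitAddCircle) s
      (fun q => arcSet q (c q) (ψ q)) (fun q _ => measurableSet_arcSet q (c q) (ψ q))
    have hSreal : ∑ q ∈ s, (volume : Measure UnitAddCircle).real (arcSet q (c q) (ψ q)) = S := by
      rw [hS]
      refine Finset.sum_congr rfl (fun q hq => ?_)
      rw [hs, Finset.mem_Ico] at hq
      rw [measureReal_def, volume_arcSet_toReal q (by omega) (c q) (ψ q) (h0 q) (h2 q)]
    rw [hSreal] at hce
    have hsub : (⋃ q ∈ s, arcSet q (c q) (ψ q)) ⊆ U := by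
      intro x hx
      rw [mem_iUnion₂] at hx
      obtain ⟨q, hq, hxq⟩ := hx
      rw [hs, Finset.mem_Ico] at hq
      exact mem_biUnion (show q ∈ {q : ℕ | M ≤ q} from hq.1) hxq
    have hmono : (volume : Measure UnitAddCircle).real (⋃ q ∈ s, arcSet q (c q) (ψ q))
        ≤ (volume : Measure UnitAddCircle).real U := measureReal_mono hsub (measure_ne_top _ _)
    have hu0 : 0 ≤ (volume : Measure UnitAddCircle).real U := measureReal_nonneg
    set u := (volume : Measure UnitAddCircle).real U with hu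
    set T := ∑ q ∈ s, ∑ r ∈ s,
        (volume : Measure UnitAddCircle).real (arcSet q (c q) (ψ q) ∩ arcSet r (c r) (ψ r)) with hT
    have hT0 : 0 ≤ T :=
      Finset.sum_nonneg (fun q _ => Finset.sum_nonneg (fun r _ => measureReal_nonneg))
    -- T ≤ S + S^2 + 4 ε S^2
    have hPN0 : 0 ≤ P N := Finset.sum_nonneg (fun q _ => h0 q)
    have hB2 : ∑ r ∈ Finset.range N, ∑ q ∈ Finset.range r, gcdWeight ψ q r ≤ ε * S ^ 2 := by
      refine hBN.trans ?_
      have : P N ^ 2 ≤ S ^ 2 := by nlinarith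
      nlinarith
    have hTle : T ≤ S + S ^ 2 + 4 * (ε * S ^ 2) := by linarith
    have h3 : S ^ 2 ≤ u * (S + S ^ 2 + 4 * (ε * S ^ 2)) := by
      calc S ^ 2 ≤ (volume : Measure UnitAddCircle).real (⋃ q ∈ s, arcSet q (c q) (ψ q)) * T := hce
        _ ≤ u * T := mul_le_mul_of_nonneg_right hmono hT0
        _ ≤ u * (S + S ^ 2 + 4 * (ε * S ^ 2)) := mul_le_mul_of_nonneg_left hTle hu0
    -- S ≥ 1/ε so S ≤ ε S^2
    have hS1 : 1 / ε ≤ S := le_trans hPN2 hSP
    have hS2 : S ≤ ε * S ^ 2 := by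
      have : 1 ≤ ε * S := by
        rw [div_le_iff₀ hε] at hS1
        linarith
      nlinarith
    have h4 : S ^ 2 ≤ u * ((1 + 5 * ε) * S ^ 2) := by
      refine h3.trans (mul_le_mul_of_nonneg_left ?_ hu0)
      nlinarith
    have hS2pos : 0 < S ^ 2 := by positivity
    have h5 : 1 * S ^ 2 ≤ (u * (1 + 5 * ε)) * S ^ 2 := by linarith
    exact le_of_mul_le_mul_right h5 hS2pos
  have hu1 : (volume : Measure UnitAddCircle).real U = 1 := by
    apply le_antisymm measureReal_le_one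
    by_contra hlt
    rw [not_le] at hlt
    set u := (volume : Measure UnitAddCircle).real U with hu
    have hu0 : 0 ≤ u := measureReal_nonneg
    have := key ((1 - u) / 5) (by linarith)
    nlinarith
  rw [prob_compl_eq_zero_iff hUm]
  rw [measureReal_def] at hu1
  have hne : (volume : Measure UnitAddCircle) U ≠ ⊤ := measure_ne_top _ _
  rw [← ENNReal.ofReal_toReal hne, hu1, ENNReal.ofReal_one]

/-- Divergence Borel–Cantelli on the circle under the gcd-sum second-moment condition. -/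
theorem circle_main (c : ℕ → UnitAddCircle) (ψ : ℕ → ℝ) (h0 : ∀ q, 0 ≤ ψ q)
    (h2 : ∀ q, ψ q ≤ 1 / 2)
    (hdiv : Tendsto (fun N => ∑ q ∈ Finset.range N, ψ q) atTop atTop)
    (hB : ∀ ε : ℝ, 0 < ε → ∃ᶠ N in atTop,
      ∑ r ∈ Finset.range N, ∑ q ∈ Finset.range r, gcdWeight ψ q r
        ≤ ε * (∑ q ∈ Finset.range N, ψ q) ^ 2) :
    ∀ᵐ x : UnitAddCircle, ∃ᶠ q in atTop, x ∈ arcSet q (c q) (ψ q) := by
  have h : ∀ M : ℕ, ∀ᵐ x : UnitAddCircle, ∃ q, M + 1 ≤ q ∧ x ∈ arcSet q (c q) (ψ q) := by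
    intro M
    have := union_full c ψ h0 h2 hdiv hB (M + 1) (by omega)
    have hmem : (⋃ q ∈ {q : ℕ | M + 1 ≤ q}, arcSet q (c q) (ψ q)) ∈ ae (volume : Measure UnitAddCircle) :=
      mem_ae_iff.mpr this
    filter_upwards [hmem] with x hx
    rw [mem_iUnion₂] at hx
    obtain ⟨q, hq, hxq⟩ := hx
    exact ⟨q, hq, hxq⟩
  rw [← ae_all_iff] at h
  filter_upwards [h] with x hx
  rw [frequently_atTop]
  intro M
  obtain ⟨q, hq, hxq⟩ := hx M
  exact ⟨q, by omega, hxq⟩

end Vale.Agent.H8
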