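import Mathlib
import Vale.Agent.H8.Core

namespace Vale.Agent.H8

open MeasureTheory Set Filter
open scoped ENNReal

/-- Transfer of an almost-everywhere statement from the circle to the real line. -/
theorem ae_real_of_ae_circle {p : UnitAddCircle → Prop} (h : ∀ᵐ y : UnitAddCircle, p y) :
    ∀ᵐ x : ℝ, p (x : UnitAddCircle) := by
  have h1 : ∀ n : ℤ, ∀ᵐ x : ℝ, x ∈ Ioc (n : ℝ) (n + 1) → p (x : UnitAddCircle) := by
    intro n
    have h2 := (UnitAddCircle.measurePreserving_mk (n : ℝ)).quasiMeasurePreserving.ae h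
    exact (ae_restrict_iff' measurableSet_Ioc).mp h2
  rw [← ae_all_iff] at h1
  filter_upwards [h1] with x hx
  refine hx (⌈x⌉ - 1) ⟨?_, ?_⟩
  · have := Int.ceil_lt_add_one x
    push_cast
    linarith
  · have := Int.le_ceil x
    push_cast
    linarith

theorem mem_arcSet_coe (q : ℕ) (γ ρ x : ℝ) :
    (x : UnitAddCircle) ∈ arcSet q (γ : UnitAddCircle) ρ
      ↔ |(q : ℝ) * x - γ - round ((q : ℝ) * x - γ)| < ρ := by
  unfold arcSet
  rw [mem_ofPred_eq, ← AddCircle.coe_nsmul, ← AddCircle.coe_sub, UnitAddCircle.norm_eq, nsmul_eq_mul]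

/-- The theorem on the real line for `ψ ≤ 1/2`. -/
theorem real_main_aux (γ : ℕ → ℝ) (ψ : ℕ → ℝ) (h0 : ∀ q, 0 ≤ ψ q) (h2 : ∀ q, ψ q ≤ 1 / 2)
    (hdiv : Tendsto (fun N => ∑ q ∈ Finset.range N, ψ q) atTop atTop)
    (hB : ∀ ε : ℝ, 0 < ε → ∃ᶠ N in atTop,
      ∑ r ∈ Finset.range N, ∑ q ∈ Finset.range r, gcdWeight ψ q r
        ≤ ε * (∑ q ∈ Finset.range N, ψ q) ^ 2) :
    ∀ᵐ x : ℝ, ∃ᶠ q : ℕ in atTop, |(q : ℝ) * x - γ q - round ((q : ℝ) * x - γ q)| < ψ q := by
  have h := circle_main (fun q => (γ q : UnitAddCircle)) ψ h0 h2 hdiv hB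
  have h' := ae_real_of_ae_circle h
  filter_upwards [h'] with x hx
  refine hx.mono (fun q hq => ?_)
  exact (mem_arcSet_coe q (γ q) (ψ q) x).mp hq

/-- For `q ≥ 1`, almost no `x` has `q x - γ` exactly half-way between two integers. -/
theorem ae_ne_half (q : ℕ) (hq : 0 < q) (γ : ℝ) :
    ∀ᵐ x : ℝ, |(q : ℝ) * x - γ - round ((q : ℝ) * x - γ)| < 1 / 2 := by
  have hq' : (q : ℝ) ≠ 0 := by exact_mod_cast hq.ne'
  have hcount : (Set.range (fun k : ℤ => ((k : ℝ) + 1 / 2 + γ) / q)).Countable :=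
    Set.countable_range _
  have hnull := hcount.measure_zero (volume : Measure ℝ)
  rw [ae_iff]
  refine measure_mono_null ?_ hnull
  intro x hx
  rw [mem_ofPred_eq, not_lt] at hx
  have hle := abs_sub_round ((q : ℝ) * x - γ)
  have heq : |(q : ℝ) * x - γ - round ((q : ℝ) * x - γ)| = 1 / 2 := le_antisymm hle hx
  rcases abs_eq (by norm_num : (0 : ℝ) ≤ 1 / 2) |>.mp heq with h | h
  · refine ⟨round ((q : ℝ) * x - γ), ?_⟩
    simp only
    field_simp
    linarith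
  · refine ⟨round ((q : ℝ) * x - γ) - 1, ?_⟩
    simp only
    push_cast
    field_simp
    linarith

end Vale.Agent.H8
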