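import Mathlib
import Vale.Agent.H8.RealLine

namespace Vale.Agent.H8

open MeasureTheory Set Filter
open scoped ENNReal

/-- General second-moment criterion on the real line: no upper bound on `ψ` is needed. -/
theorem real_main (γ : ℕ → ℝ) (ψ : ℕ → ℝ) (h0 : ∀ q, 0 ≤ ψ q) (hdiv : ¬ Summable ψ)
    (hB : ∀ ε : ℝ, 0 < ε → ∃ᶠ N in atTop,
      ∑ r ∈ Finset.range N, ∑ q ∈ Finset.range r,
          (Nat.gcd q r : ℝ) * min (ψ q / q) (ψ r / r)
        ≤ ε * (∑ q ∈ Finset.range N, ψ q) ^ 2) :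
    ∀ᵐ x : ℝ, ∃ᶠ q : ℕ in atTop, |(q : ℝ) * x - γ q - round ((q : ℝ) * x - γ q)| < ψ q := by
  classical
  by_cases hbig : ∃ᶠ q in atTop, 1 / 2 ≤ ψ q
  · -- infinitely many large values: trivial case
    have hall : ∀ᵐ x : ℝ, ∀ q : ℕ, 0 < q →
        |(q : ℝ) * x - γ q - round ((q : ℝ) * x - γ q)| < 1 / 2 := by
      rw [ae_all_iff]
      intro q
      by_cases hq : 0 < q
      · filter_upwards [ae_ne_half q hq (γ q)] with x hx _
        exact hx
      · exact Eventually.of_forall (fun x h => absurd h hq)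
    filter_upwards [hall] with x hx
    have hfr : ∃ᶠ q in atTop, 1 / 2 ≤ ψ q ∧ 0 < q := hbig.and_eventually (eventually_gt_atTop 0)
    exact hfr.mono (fun q hq => lt_of_lt_of_le (hx q hq.2) hq.1)
  · rw [not_frequently] at hbig
    obtain ⟨Q₀, hQ₀⟩ := eventually_atTop.mp hbig
    set ψ' : ℕ → ℝ := fun q => min (ψ q) (1 / 2) with hψ'
    have h0' : ∀ q, 0 ≤ ψ' q := fun q => le_min (h0 q) (by norm_num)
    have h2' : ∀ q, ψ' q ≤ 1 / 2 := fun q => min_le_right _ _
    have hle : ∀ q, ψ' q ≤ ψ q := fun q => min_le_left _ _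
    have heq : ∀ q, Q₀ ≤ q → ψ' q = ψ q := by
      intro q hq
      have := hQ₀ q hq
      rw [not_le] at this
      exact min_eq_left this.le
    set P : ℕ → ℝ := fun N => ∑ q ∈ Finset.range N, ψ q with hP
    set P' : ℕ → ℝ := fun N => ∑ q ∈ Finset.range N, ψ' q with hP'
    set C : ℝ := P Q₀ with hC
    have hPtend : Tendsto P atTop atTop := (not_summable_iff_tendsto_nat_atTop_of_nonneg h0).mp hdiv
    have hPP' : ∀ N, P N ≤ P' N + C := by
      intro N
      have h1 : ∀ q ∈ Finset.range N, ψ q ≤ ψ' q + (if q < Q₀ then ψ q else 0) := by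
        intro q _
        by_cases hq : q < Q₀
        · rw [if_pos hq]; linarith [h0' q]
        · rw [if_neg hq, heq q (by omega)]; linarith
      have h2 : P N ≤ ∑ q ∈ Finset.range N, (ψ' q + (if q < Q₀ then ψ q else 0)) :=
        Finset.sum_le_sum h1
      rw [Finset.sum_add_distrib, ← Finset.sum_filter] at h2
      have h3 : ∑ q ∈ (Finset.range N).filter (fun q => q < Q₀), ψ q ≤ C := by
        rw [hC, hP]
        refine Finset.sum_le_sum_of_subset_of_nonneg ?_ (fun q _ _ => h0 q)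
        intro q hq
        rw [Finset.mem_filter] at hq
        exact Finset.mem_range.mpr hq.2
      linarith
    have hP'tend : Tendsto P' atTop atTop := by
      have h1 : Tendsto (fun N => P N + (-C)) atTop atTop :=
        tendsto_atTop_add_const_right _ _ hPtend
      refine tendsto_atTop_mono (fun N => ?_) h1
      have := hPP' N
      linarith
    have hP0 : ∀ N, 0 ≤ P N := fun N => Finset.sum_nonneg (fun q _ => h0 q)
    have hB' : ∀ ε : ℝ, 0 < ε → ∃ᶠ N in atTop,
        ∑ r ∈ Finset.range N, ∑ q ∈ Finset.range r, gcdWeight ψ' q r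
          ≤ ε * (∑ q ∈ Finset.range N, ψ' q) ^ 2 := by
      intro ε hε
      have hfr := (hB (ε / 4) (by positivity)).and_eventually (hP'tend.eventually_ge_atTop C)
      refine hfr.mono (fun N hN => ?_)
      obtain ⟨hBN, hCN⟩ := hN
      have hterm : ∑ r ∈ Finset.range N, ∑ q ∈ Finset.range r, gcdWeight ψ' q r
          ≤ ∑ r ∈ Finset.range N, ∑ q ∈ Finset.range r,
            (Nat.gcd q r : ℝ) * min (ψ q / q) (ψ r / r) := by
        refine Finset.sum_le_sum (fun r _ => Finset.sum_le_sum (fun q _ => ?_))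
        unfold gcdWeight
        refine mul_le_mul_of_nonneg_left ?_ (Nat.cast_nonneg _)
        exact min_le_min (div_le_div_of_nonneg_right (hle q) (Nat.cast_nonneg q))
          (div_le_div_of_nonneg_right (hle r) (Nat.cast_nonneg r))
      have h1 : P N ≤ 2 * P' N := by
        have := hPP' N
        linarith
      have h2 : P N ^ 2 ≤ 4 * P' N ^ 2 := by
        have := hP0 N
        nlinarith
      calc ∑ r ∈ Finset.range N, ∑ q ∈ Finset.range r, gcdWeight ψ' q r
          ≤ ε / 4 * P N ^ 2 := hterm.trans hBN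
        _ ≤ ε * P' N ^ 2 := by nlinarith
    have hmain := real_main_aux γ ψ' h0' h2' hP'tend hB'
    filter_upwards [hmain] with x hx
    exact hx.mono (fun q hq => lt_of_lt_of_le hq (hle q))

/-- Corollary: bounded gcd sums on the support of `ψ`. -/
theorem real_gcd_sum (γ : ℕ → ℝ) (ψ : ℕ → ℝ) (h0 : ∀ q, 0 ≤ ψ q) (hdiv : ¬ Summable ψ)
    (K : ℝ)
    (hK : ∀ r : ℕ, ψ r ≠ 0 →
      ∑ q ∈ (Finset.range r).filter (fun q => ψ q ≠ 0), (Nat.gcd q r : ℝ) ≤ K * r) :
    ∀ᵐ x : ℝ, ∃ᶠ q : ℕ in atTop, |(q : ℝ) * x - γ q - round ((q : ℝ) * x - γ q)| < ψ q := by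
  classical
  apply real_main γ ψ h0 hdiv
  intro ε hε
  set K' : ℝ := max K 0 with hK'
  have hK'0 : 0 ≤ K' := le_max_right _ _
  have hKK' : K ≤ K' := le_max_left _ _
  have hPtend : Tendsto (fun N => ∑ q ∈ Finset.range N, ψ q) atTop atTop :=
    (not_summable_iff_tendsto_nat_atTop_of_nonneg h0).mp hdiv
  have hinner : ∀ r : ℕ, ∑ q ∈ Finset.range r, (Nat.gcd q r : ℝ) * min (ψ q / q) (ψ r / r)
      ≤ K' * ψ r := by
    intro r
    by_cases hr : ψ r = 0
    · rw [hr, mul_zero]
      apply le_of_eq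
      apply Finset.sum_eq_zero
      intro q _
      have h1 : 0 ≤ ψ q / q := div_nonneg (h0 q) (Nat.cast_nonneg q)
      rw [zero_div, min_eq_right h1, mul_zero]
    · rcases Nat.eq_zero_or_pos r with hr0 | hr0
      · subst hr0
        simp only [Finset.range_zero, Finset.sum_empty]
        exact mul_nonneg hK'0 (h0 0)
      · have hr' : (0 : ℝ) < r := by exact_mod_cast hr0
        have h1 : ∀ q ∈ Finset.range r, (Nat.gcd q r : ℝ) * min (ψ q / q) (ψ r / r)
            ≤ if ψ q ≠ 0 then (Nat.gcd q r : ℝ) * (ψ r / r) else 0 := by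
          intro q _
          by_cases hq : ψ q ≠ 0
          · rw [if_pos hq]
            exact mul_le_mul_of_nonneg_left (min_le_right _ _) (Nat.cast_nonneg _)
          · rw [if_neg hq]
            rw [not_not] at hq
            have h2 : 0 ≤ ψ r / r := div_nonneg (h0 r) (Nat.cast_nonneg r)
            rw [hq, zero_div, min_eq_left h2, mul_zero]
        refine (Finset.sum_le_sum h1).trans ?_
        rw [← Finset.sum_filter, ← Finset.sum_mul]
        have h3 := hK r hr
        have h4 : 0 ≤ ψ r / r := div_nonneg (h0 r) (Nat.cast_nonneg r)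
        calc (∑ q ∈ (Finset.range r).filter (fun q => ψ q ≠ 0), (Nat.gcd q r : ℝ)) * (ψ r / r)
            ≤ (K' * r) * (ψ r / r) := by
              refine mul_le_mul_of_nonneg_right (h3.trans ?_) h4
              exact mul_le_mul_of_nonneg_right hKK' hr'.le
          _ = K' * ψ r := by field_simp
  have hev : ∀ᶠ N in atTop, K' / ε ≤ ∑ q ∈ Finset.range N, ψ q :=
    hPtend.eventually_ge_atTop (K' / ε)
  refine hev.frequently.mono (fun N hN => ?_)
  set P := ∑ q ∈ Finset.range N, ψ q with hP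
  have hP0 : 0 ≤ P := Finset.sum_nonneg (fun q _ => h0 q)
  have h5 : ∑ r ∈ Finset.range N, ∑ q ∈ Finset.range r,
      (Nat.gcd q r : ℝ) * min (ψ q / q) (ψ r / r) ≤ K' * P := by
    rw [hP, Finset.mul_sum]
    exact Finset.sum_le_sum (fun r _ => hinner r)
  refine h5.trans ?_
  rw [div_le_iff₀ hε] at hN
  nlinarith

/-- `∑_{q < r} gcd(q, r) ≤ d(r) · r`. -/
theorem sum_gcd_le (r : ℕ) :
    ∑ q ∈ Finset.range r, Nat.gcd q r ≤ (Nat.divisors r).card * r := by
  classical
  rcases Nat.eq_zero_or_pos r with hr | hr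
  · subst hr; simp
  have hmaps : ∀ q ∈ Finset.range r, Nat.gcd q r ∈ Nat.divisors r := by
    intro q _
    rw [Nat.mem_divisors]
    exact ⟨Nat.gcd_dvd_right q r, hr.ne'⟩
  rw [← Finset.sum_fiberwise_of_maps_to hmaps]
  have hfib : ∀ d ∈ Nat.divisors r,
      ∑ q ∈ (Finset.range r).filter (fun q => Nat.gcd q r = d), Nat.gcd q r ≤ r := by
    intro d hd
    rw [Nat.mem_divisors] at hd
    have hdr : d ∣ r := hd.1
    have h1 : ∑ q ∈ (Finset.range r).filter (fun q => Nat.gcd q r = d), Nat.gcd q r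
        = ((Finset.range r).filter (fun q => Nat.gcd q r = d)).card * d := by
      rw [Finset.sum_congr rfl (fun q hq => (Finset.mem_filter.mp hq).2)]
      simp
    rw [h1]
    have h2 : ((Finset.range r).filter (fun q => Nat.gcd q r = d)).card ≤ r / d := by
      have := Finset.card_le_card_of_injOn (s := (Finset.range r).filter (fun q => Nat.gcd q r = d))
        (t := Finset.range (r / d)) (fun q => q / d) ?_ ?_
      · simpa using this
      · intro q hq
        rw [Finset.mem_coe, Finset.mem_filter, Finset.mem_range] at hq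
        rw [Finset.mem_coe, Finset.mem_range]
        exact Nat.div_lt_div_of_lt_of_dvd hdr hq.1
      · intro q hq q' hq' hqq'
        rw [Finset.mem_coe, Finset.mem_filter] at hq hq'
        have hdq : d ∣ q := hq.2 ▸ Nat.gcd_dvd_left q r
        have hdq' : d ∣ q' := hq'.2 ▸ Nat.gcd_dvd_left q' r
        simp only at hqq'
        calc q = q / d * d := (Nat.div_mul_cancel hdq).symm
          _ = q' / d * d := by rw [hqq']
          _ = q' := Nat.div_mul_cancel hdq'
    calc ((Finset.range r).filter (fun q => Nat.gcd q r = d)).card * d ≤ r / d * d :=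
          Nat.mul_le_mul_right d h2
      _ = r := Nat.div_mul_cancel hdr
  calc ∑ d ∈ Nat.divisors r, ∑ q ∈ (Finset.range r).filter (fun q => Nat.gcd q r = d), Nat.gcd q r
      ≤ ∑ d ∈ Nat.divisors r, r := Finset.sum_le_sum hfib
    _ = (Nat.divisors r).card * r := by simp

/-- Corollary: `ψ` supported on integers with at most `K` divisors. -/
theorem real_bounded_divisors (γ : ℕ → ℝ) (ψ : ℕ → ℝ) (K : ℕ) (h0 : ∀ q, 0 ≤ ψ q)
    (hsupp : ∀ q : ℕ, ψ q ≠ 0 → (Nat.divisors q).card ≤ K) (hdiv : ¬ Summable ψ) :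
    ∀ᵐ x : ℝ, ∃ᶠ q : ℕ in atTop, |(q : ℝ) * x - γ q - round ((q : ℝ) * x - γ q)| < ψ q := by
  classical
  apply real_gcd_sum γ ψ h0 hdiv (K : ℝ)
  intro r hr
  have h1 : ∑ q ∈ (Finset.range r).filter (fun q => ψ q ≠ 0), (Nat.gcd q r : ℝ)
      ≤ ∑ q ∈ Finset.range r, (Nat.gcd q r : ℝ) :=
    Finset.sum_le_sum_of_subset_of_nonneg (Finset.filter_subset _ _) (fun q _ _ => Nat.cast_nonneg _)
  have h2 : ∑ q ∈ Finset.range r, (Nat.gcd q r : ℝ) ≤ ((Nat.divisors r).card : ℝ) * r := by
    have := sum_gcd_le r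
    exact_mod_cast this
  have h3 : ((Nat.divisors r).card : ℝ) ≤ K := by exact_mod_cast hsupp r hr
  calc ∑ q ∈ (Finset.range r).filter (fun q => ψ q ≠ 0), (Nat.gcd q r : ℝ)
      ≤ ((Nat.divisors r).card : ℝ) * r := h1.trans h2
    _ ≤ (K : ℝ) * r := mul_le_mul_of_nonneg_right h3 (Nat.cast_nonneg r)

end Vale.Agent.H8
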